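import Vale.Agent.Lib.P067.Reduction

/-!
# Skeleta of bounded-degree coboundary expanders; monotonicity of Q1 in the dimension

All definitions used in the statement are in `Vale/Agent/Lib/P067/Defs.lean`.
-/

namespace Vale.Agent.Results.P067.SkeletonMonotone

open Vale.Agent.Lib.P067

/-- (a) The `e`-skeleton of a pure `(e+1)`-dimensional `ε`-coboundary expander of degree at most
`D` is a pure `e`-dimensional `ε / D^2`-coboundary expander of degree at most `(e+1) D`.
(b) If the statement of Q1 holds in dimension `d`, it holds in every dimension `d'` with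
`1 ≤ d' ≤ d`. -/
theorem result :
    (∀ (V : Type) [Fintype V] [DecidableEq V] [Nonempty V] (K : Finset (Finset V)) (e D : ℕ)
        (ε : ℝ), IsPureComplex K (e + 1) → DegreeLE K (e + 1) D → 0 ≤ ε →
        IsCoboundaryExpander K (e + 1) ε →
        IsPureComplex (skel K e) e ∧ DegreeLE (skel K e) e ((e + 1) * D) ∧
          IsCoboundaryExpander (skel K e) e (ε / (D : ℝ) ^ 2)) ∧
    (∀ d d' : ℕ, 1 ≤ d' → d' ≤ d →
      BoundedDegreeExpandersExist d → BoundedDegreeExpandersExist d') :=
  ⟨fun _ _ _ _ _ _ _ _ hK hD hε hexp => skeleton_expander hK hD hε hexp,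
    fun d d' h1 h2 h => exist_mono d d' h1 h2 h⟩

end Vale.Agent.Results.P067.SkeletonMonotone
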