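import Vale.Agent.Lib.P067.Iterated

/-!
# Skeleta of every codimension of a bounded-degree coboundary expander, with explicit constants

All definitions used in the statement are in `Vale/Agent/Lib/P067/Defs.lean`.
-/

namespace Vale.Agent.Results.P067.SkeletonsExplicit

open Vale.Agent.Lib.P067

/-- Let `K` be a pure `(e+k)`-dimensional simplicial complex on a finite nonempty vertex set, of
degree at most `D`, which is an `ε`-coboundary expander (`ε ≥ 0`).  Then its `e`-skeleton is a
pure `e`-dimensional complex of degree at most `D (e+k)(e+k-1)...(e+1)`, and it is an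
`ε / C`-coboundary expander, where `C` is the product over `j = 0, ..., k-1` of
`(D (e+k)(e+k-1)...(e+k-j+1))^2`. -/
theorem result (V : Type) [Fintype V] [DecidableEq V] [Nonempty V] (K : Finset (Finset V))
    (e k D : ℕ) (ε : ℝ) (hK : IsPureComplex K (e + k)) (hD : DegreeLE K (e + k) D) (hε : 0 ≤ ε)
    (hexp : IsCoboundaryExpander K (e + k) ε) :
    IsPureComplex (skel K e) e ∧ DegreeLE (skel K e) e (D * (e + k).descFactorial k) ∧
      IsCoboundaryExpander (skel K e) e
        (ε / ∏ j ∈ Finset.range k, ((D * (e + k).descFactorial j : ℕ) : ℝ) ^ 2) :=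
  skeleton_iterated k e hK hD hε hexp

end Vale.Agent.Results.P067.SkeletonsExplicit
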